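import Vale.Agent.P162.Link

namespace Vale.Agent.Results.P162.Theta

open Vale.Agent.P162

theorem result : ∃ c C : ℝ, 0 < c ∧ ∃ d0 : ℕ, ∀ d : ℕ, d0 ≤ d →
    (mixedTimes (2 ^ d)).Nonempty ∧
    c * Real.log ((2 : ℝ) ^ d) ≤ (tmix (2 ^ d) : ℝ) ∧
    (tmix (2 ^ d) : ℝ) ≤ C * Real.log ((2 : ℝ) ^ d) := by
  obtain ⟨N, d0, h⟩ := upper
  refine ⟨1 / 2, 2 * N, by norm_num, d0 + 4, fun d hd => ?_⟩
  have h1 := h d (by omega)
  have h2 : (d : ℝ) ≤ tmix (2 ^ d) + 2 := by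
    exact_mod_cast lower d _ (by omega) (Nat.sInf_mem ⟨_, h1⟩)
  have h3 : (tmix (2 ^ d) : ℝ) ≤ d * N := by exact_mod_cast Nat.sInf_le h1
  have h4 : (4 : ℝ) ≤ d := by exact_mod_cast (by omega : 4 ≤ d)
  have h5 := Real.log_two_lt_d9
  have h6 := Real.log_two_gt_d9
  have h7 : (0 : ℝ) ≤ d * N := by positivity
  rw [Real.log_pow]
  exact ⟨⟨_, h1⟩, by nlinarith, by nlinarith⟩

end Vale.Agent.Results.P162.Theta
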